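import Mathlib

/-!
# P329: the group algebra behind the `A_4` case

`A_4 = V_4 ⋊ Z_3`.  For a word `w` over an alphabet `α` with a letter map `φ : α → A_4`, the
product `(w.map φ).prod` is determined by
* the level `lev w ∈ Z_3` (the sum of the weights `kap (φ a)` of the letters), and
* for each `h ∈ A_4` and each level `m`, the parity of the number `countAt … m 0 w` of positions
  of `w` whose letter has image `h` and whose preceding initial segment has level `m`.
-/

namespace Vale.Agent.Helper17.P329

open Equiv

/-- The number of positions of the word whose letter satisfies `p` and is read at level `l`.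
The level before reading a letter is `s` plus the sum of the weights of the preceding letters. -/
def countAt {α : Type} (wt : α → ZMod 3) (p : α → Prop) [DecidablePred p] (l : ZMod 3) :
    ZMod 3 → List α → ℕ
  | _, [] => 0
  | s, a :: w => (if p a ∧ s = l then 1 else 0) + countAt wt p l (s + wt a) w

/-- The level of a word: the sum of the weights of its letters. -/
def lev {α : Type} (wt : α → ZMod 3) (w : List α) : ZMod 3 := (w.map wt).sum

theorem lev_nil {α : Type} (wt : α → ZMod 3) : lev wt [] = 0 := rfl

theorem lev_cons {α : Type} (wt : α → ZMod 3) (a : α) (w : List α) :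
    lev wt (a :: w) = wt a + lev wt w := by
  simp [lev]

theorem lev_append {α : Type} (wt : α → ZMod 3) (u w : List α) :
    lev wt (u ++ w) = lev wt u + lev wt w := by
  simp [lev]

theorem countAt_append {α : Type} (wt : α → ZMod 3) (p : α → Prop) [DecidablePred p]
    (l s : ZMod 3) (u w : List α) :
    countAt wt p l s (u ++ w) = countAt wt p l s u + countAt wt p l (s + lev wt u) w := by
  induction u generalizing s with
  | nil => simp [countAt, lev_nil]
  | cons a u ih =>
    rw [List.cons_append, countAt, countAt, ih, lev_cons, add_assoc, add_assoc]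

/-- Erasing letters of weight `0` that are not targets, and renaming the other letters in a way
that preserves weights and target status, does not change the counts. -/
theorem countAt_filterMap {α β : Type} (wt : α → ZMod 3) (wt' : β → ZMod 3)
    (p : α → Prop) (p' : β → Prop) [DecidablePred p] [DecidablePred p'] (f : α → Option β)
    (h0 : ∀ a, f a = none → wt a = 0 ∧ ¬ p a)
    (h1 : ∀ a b, f a = some b → wt' b = wt a ∧ (p' b ↔ p a))
    (l s : ZMod 3) (w : List α) :
    countAt wt' p' l s (w.filterMap f) = countAt wt p l s w := by
  induction w generalizing s with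
  | nil => rfl
  | cons a w ih =>
    cases hfa : f a with
    | none =>
      obtain ⟨hw, hp⟩ := h0 a hfa
      rw [List.filterMap_cons_none hfa, countAt, ih, hw, add_zero]
      simp [hp]
    | some b =>
      obtain ⟨hw, hp⟩ := h1 a b hfa
      rw [List.filterMap_cons_some hfa, countAt, countAt, ih, hw]
      simp [hp]

theorem lev_filterMap {α β : Type} (wt : α → ZMod 3) (wt' : β → ZMod 3) (f : α → Option β)
    (h0 : ∀ a, f a = none → wt a = 0)
    (h1 : ∀ a b, f a = some b → wt' b = wt a) (w : List α) :
    lev wt' (w.filterMap f) = lev wt w := by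
  induction w with
  | nil => rfl
  | cons a w ih =>
    cases hfa : f a with
    | none =>
      rw [List.filterMap_cons_none hfa, lev_cons, ih, h0 a hfa, zero_add]
    | some b =>
      rw [List.filterMap_cons_some hfa, lev_cons, lev_cons, ih, h1 a b hfa]

/-- The alternating group on four points. -/
abbrev A4 : Type := alternatingGroup (Fin 4)

/-- A three-cycle, as an element of `A_4`. -/
def x0 : A4 := ⟨swap 0 1 * swap 1 2, by
  rw [Equiv.Perm.mem_alternatingGroup]
  decide⟩

/-- The class of `g` modulo the Klein four-group, as an element of `Z_3`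
(`g ∈ V_4 · x0 ^ kap g`). -/
def kap (g : A4) : ZMod 3 :=
  if g * g = 1 then 0 else if (x0⁻¹ * g) * (x0⁻¹ * g) = 1 then 1 else 2

/-- `x0 ^ s` for `s ∈ Z_3`. -/
def xpow (s : ZMod 3) : A4 := x0 ^ s.val

/-- The element of the Klein four-group contributed by the letter `g` read at level `s`. -/
def cpart (g : A4) (s : ZMod 3) : A4 := xpow s * g * (xpow (s + kap g))⁻¹

/-- Coordinates on the Klein four-group. -/
def theta (g : A4) : ZMod 2 × ZMod 2 :=
  (if (g : Perm (Fin 4)) 0 = 0 ∨ (g : Perm (Fin 4)) 0 = 1 then 0 else 1,
   if (g : Perm (Fin 4)) 0 = 0 ∨ (g : Perm (Fin 4)) 0 = 2 then 0 else 1)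

set_option maxRecDepth 100000 in
theorem kap_mul : ∀ g h : A4, kap (g * h) = kap g + kap h := by decide

set_option maxRecDepth 100000 in
theorem xpow_add : ∀ s t : ZMod 3, xpow (s + t) = xpow s * xpow t := by decide

set_option maxRecDepth 100000 in
theorem xpow_zero : xpow 0 = 1 := by decide

set_option maxRecDepth 100000 in
theorem cpart_sq : ∀ (g : A4) (s : ZMod 3), cpart g s * cpart g s = 1 := by decide

set_option maxRecDepth 100000 in
theorem klein_mul : ∀ u v : A4, u * u = 1 → v * v = 1 →
    (u * v) * (u * v) = 1 ∧ theta (u * v) = theta u + theta v := by decide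

set_option maxRecDepth 100000 in
theorem klein_inj : ∀ u v : A4, u * u = 1 → v * v = 1 → theta u = theta v → u = v := by decide

set_option maxRecDepth 100000 in
theorem theta_one : theta 1 = 0 := by decide

variable {α : Type}

/-- The twisted product `x0^s * (w.map φ).prod * x0^(-(s + lev w))`; it lies in the Klein
four-group. -/
def tw (φ : α → A4) (s : ZMod 3) (w : List α) : A4 :=
  xpow s * (w.map φ).prod * (xpow (s + lev (fun a => kap (φ a)) w))⁻¹

theorem tw_nil (φ : α → A4) (s : ZMod 3) : tw φ s [] = 1 := by
  simp [tw, lev_nil]

theorem tw_cons (φ : α → A4) (s : ZMod 3) (a : α) (w : List α) :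
    tw φ s (a :: w) = cpart (φ a) s * tw φ (s + kap (φ a)) w := by
  unfold tw cpart
  rw [List.map_cons, List.prod_cons, lev_cons, ← add_assoc]
  group

theorem klein_add_self : ∀ v : ZMod 2 × ZMod 2, v + v = 0 := by decide

theorem nsmul_klein (v : ZMod 2 × ZMod 2) (n : ℕ) : n • v = if Even n then 0 else v := by
  induction n with
  | zero => simp
  | succ k ih =>
    rw [succ_nsmul, ih]
    by_cases hk : Even k
    · have h1 : ¬ Even (k + 1) := by
        rw [Nat.even_add_one]
        exact not_not.mpr hk
      rw [if_pos hk, if_neg h1, zero_add]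
    · have h1 : Even (k + 1) := by
        rw [Nat.even_add_one]
        exact hk
      rw [if_neg hk, if_pos h1, klein_add_self]

theorem nsmul_eq_of_parity (v : ZMod 2 × ZMod 2) (n m : ℕ) (h : Even n ↔ Even m) :
    n • v = m • v := by
  rw [nsmul_klein, nsmul_klein]
  by_cases hn : Even n
  · rw [if_pos hn, if_pos (h.mp hn)]
  · rw [if_neg hn, if_neg (fun hm => hn (h.mpr hm))]

/-- The twisted product lies in the Klein four-group, and its coordinates are the sum of the
contributions of the letters, indexed by (image of the letter, level at which it is read). -/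
theorem tw_spec (φ : α → A4) (w : List α) (s : ZMod 3) :
    tw φ s w * tw φ s w = 1 ∧
    theta (tw φ s w) = ∑ h : A4, ∑ m : ZMod 3,
      countAt (fun a => kap (φ a)) (fun a => φ a = h) m s w • theta (cpart h m) := by
  induction w generalizing s with
  | nil =>
    rw [tw_nil]
    refine ⟨by simp, ?_⟩
    rw [theta_one]
    simp [countAt]
  | cons a w ih =>
    obtain ⟨ih1, ih2⟩ := ih (s + kap (φ a))
    have hk := klein_mul _ _ (cpart_sq (φ a) s) ih1
    rw [tw_cons]
    refine ⟨hk.1, ?_⟩
    rw [hk.2, ih2]
    have key : ∑ h : A4, ∑ m : ZMod 3,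
        (if φ a = h ∧ s = m then 1 else 0) • theta (cpart h m) = theta (cpart (φ a) s) := by
      rw [Finset.sum_eq_single (φ a)]
      · rw [Finset.sum_eq_single s]
        · simp
        · intro m _ hm
          rw [if_neg (fun h => hm h.2.symm), zero_smul]
        · intro h
          exact absurd (Finset.mem_univ _) h
      · intro h _ hh
        refine Finset.sum_eq_zero (fun m _ => ?_)
        rw [if_neg (fun h' => hh h'.1.symm), zero_smul]
      · intro h
        exact absurd (Finset.mem_univ _) h
    simp only [countAt, add_smul, Finset.sum_add_distrib]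
    rw [key]

/-- The product of the images of the letters of a word in `A_4` is determined by the level of
the word and the parities of the level-indexed letter counts. -/
theorem prod_eq_of_stats (φ : α → A4) (w w' : List α)
    (hl : lev (fun a => kap (φ a)) w = lev (fun a => kap (φ a)) w')
    (hN : ∀ (h : A4) (m : ZMod 3),
      Even (countAt (fun a => kap (φ a)) (fun a => φ a = h) m 0 w)
        ↔ Even (countAt (fun a => kap (φ a)) (fun a => φ a = h) m 0 w')) :
    (w.map φ).prod = (w'.map φ).prod := by
  obtain ⟨h1, h2⟩ := tw_spec φ w 0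
  obtain ⟨h1', h2'⟩ := tw_spec φ w' 0
  have heq : tw φ 0 w = tw φ 0 w' := by
    apply klein_inj _ _ h1 h1'
    rw [h2, h2']
    refine Finset.sum_congr rfl (fun h _ => Finset.sum_congr rfl (fun m _ => ?_))
    exact nsmul_eq_of_parity _ _ _ (hN h m)
  unfold tw at heq
  rw [hl] at heq
  exact mul_left_cancel (mul_right_cancel heq)

end Vale.Agent.Helper17.P329
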