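import Vale.Agent.Helper23.P329Core
import Vale.Agent.Helper17.P329Algebra

/-!
# P329: finite Boolean combinations and the assembly of the `A_4` case

* `H1_of_saturated`: a language that is a union of classes of the equivalence relation
  of having the same membership in each of finitely many languages of height at most one has height at most
  one.
* `A4_assembly`: if the level languages and the parity languages of the level-indexed letter
  counts have height at most one, then so does every language recognised by the letter map
  into `A_4`.
-/

namespace Vale.Agent.Helper17.P329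

open Vale.Agent.Helper23.P329

variable {α : Type}

/-- The language of the words satisfying `p`. -/
def langOf (p : List α → Prop) : Language α := {w | p w}

theorem mem_langOf (p : List α → Prop) (w : List α) : w ∈ langOf p ↔ p w := Iff.rfl

theorem H1_forall_finset {ι : Type} (s : Finset ι) (M : ι → Language α) (h : ∀ i ∈ s, H1 (M i)) :
    H1 (langOf (fun w => ∀ i ∈ s, w ∈ M i)) := by
  classical
  induction s using Finset.induction_on with
  | empty =>
    have e : langOf (fun w => ∀ i ∈ (∅ : Finset ι), w ∈ M i) = (⊤ : Language α) := by
      ext w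
      rw [mem_langOf]
      simp [mem_top]
    rw [e]
    exact SF.top.h1
  | insert a s ha ih =>
    have e : langOf (fun w => ∀ i ∈ insert a s, w ∈ M i)
        = M a ⊓ langOf (fun w => ∀ i ∈ s, w ∈ M i) := by
      ext w
      rw [Language.mem_inf, mem_langOf, mem_langOf]
      constructor
      · intro hw
        exact ⟨hw a (Finset.mem_insert_self a s), fun i hi => hw i (Finset.mem_insert_of_mem hi)⟩
      · rintro ⟨h1, h2⟩ i hi
        rcases Finset.mem_insert.mp hi with rfl | hi
        · exact h1
        · exact h2 i hi
    rw [e]
    exact (h a (Finset.mem_insert_self a s)).inf (ih (fun i hi => h i (Finset.mem_insert_of_mem hi)))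

/-- Finite Boolean combinations: if membership in `L` only depends on the membership pattern in
finitely many languages of height at most one, then `L` has height at most one. -/
theorem H1_of_saturated {ι : Type} [Fintype ι] (K : ι → Language α) (hK : ∀ i, H1 (K i))
    (L : Language α)
    (hL : ∀ w w' : List α, (∀ i, w ∈ K i ↔ w' ∈ K i) → w ∈ L → w' ∈ L) : H1 L := by
  classical
  have hatom : ∀ S : Finset ι,
      H1 (langOf (fun w => ∀ i ∈ (Finset.univ : Finset ι),
        w ∈ (if i ∈ S then K i else (K i)ᶜ))) := by
    intro S
    refine H1_forall_finset _ _ (fun i _ => ?_)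
    by_cases hi : i ∈ S
    · rw [if_pos hi]
      exact hK i
    · rw [if_neg hi]
      exact (hK i).compl
  have e : L = ∑ S ∈ (Finset.univ : Finset (Finset ι)).filter
        (fun S => ∃ w ∈ L, ∀ i, w ∈ K i ↔ i ∈ S),
      langOf (fun w => ∀ i ∈ (Finset.univ : Finset ι),
        w ∈ (if i ∈ S then K i else (K i)ᶜ)) := by
    ext w
    rw [mem_finset_sum]
    constructor
    · intro hw
      have hS : ∀ i : ι, i ∈ Finset.univ.filter (fun i => w ∈ K i) ↔ w ∈ K i := by
        intro i
        rw [Finset.mem_filter]
        exact ⟨fun h => h.2, fun h => ⟨Finset.mem_univ _, h⟩⟩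
      refine ⟨Finset.univ.filter (fun i => w ∈ K i), ?_, ?_⟩
      · rw [Finset.mem_filter]
        exact ⟨Finset.mem_univ _, w, hw, fun i => (hS i).symm⟩
      · rw [mem_langOf]
        intro i _
        by_cases hi : w ∈ K i
        · rw [if_pos ((hS i).mpr hi)]
          exact hi
        · rw [if_neg (fun h => hi ((hS i).mp h))]
          exact hi
    · rintro ⟨S, hS, hw⟩
      rw [Finset.mem_filter] at hS
      obtain ⟨-, w0, hw0, hw0S⟩ := hS
      refine hL w0 w (fun i => ?_) hw0
      rw [mem_langOf] at hw
      have hwi := hw i (Finset.mem_univ _)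
      by_cases hi : i ∈ S
      · rw [if_pos hi] at hwi
        exact ⟨fun _ => hwi, fun _ => (hw0S i).mpr hi⟩
      · rw [if_neg hi] at hwi
        exact ⟨fun h => absurd ((hw0S i).mp h) hi, fun h => absurd h hwi⟩
  rw [e]
  exact H1.finset_sum _ _ (fun S _ => hatom S)

/-- Assembly of the `A_4` case: the languages recognised by a letter map into `A_4` have height
at most one as soon as the level languages and the parity languages of the level-indexed letter
counts do. -/
theorem A4_assembly (φ : α → A4)
    (hN : ∀ (h : A4) (m : ZMod 3),
      H1 ({w | Even (countAt (fun a => kap (φ a)) (fun a => φ a = h) m 0 w)} : Language α))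
    (hlev : ∀ j : ZMod 3, H1 ({w | lev (fun a => kap (φ a)) w = j} : Language α))
    (P : Set A4) : H1 ({w | (w.map φ).prod ∈ P} : Language α) := by
  refine H1_of_saturated (ι := (A4 × ZMod 3) ⊕ ZMod 3)
    (fun i => Sum.elim
      (fun hm : A4 × ZMod 3 =>
        ({w | Even (countAt (fun a => kap (φ a)) (fun a => φ a = hm.1) hm.2 0 w)} : Language α))
      (fun j : ZMod 3 => ({w | lev (fun a => kap (φ a)) w = j} : Language α)) i) ?_ _ ?_
  · rintro (⟨h, m⟩ | j)
    · exact hN h m
    · exact hlev j
  · intro w w' hww hw
    have hl : lev (fun a => kap (φ a)) w = lev (fun a => kap (φ a)) w' := by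
      have := (hww (Sum.inr (lev (fun a => kap (φ a)) w))).mp rfl
      exact this.symm
    have hp : (w.map φ).prod = (w'.map φ).prod :=
      prod_eq_of_stats φ w w' hl (fun h m => hww (Sum.inl (h, m)))
    show (w'.map φ).prod ∈ P
    rw [← hp]
    exact hw

end Vale.Agent.Helper17.P329
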