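import Vale.Agent.Helper17.ThorpLemmas

/-!
# The Thorp shuffle: counting permutations with a prescribed even-to-top count,
and the resulting lower bound on the total variation distance
-/

namespace Vale.Agent.Helper17

open Finset

/-- Indicator that the card starting in position `x` ends in the top half. -/
def topInd (m : ℕ) (σ : Equiv.Perm (Fin (2 * m))) (x : Fin (2 * m)) : ℤ :=
  if (σ x : ℕ) < m then 1 else 0

theorem topInd_sq (m : ℕ) (σ : Equiv.Perm (Fin (2 * m))) (x : Fin (2 * m)) :
    topInd m σ x = 0 ∨ topInd m σ x = 1 := by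
  unfold topInd; split_ifs <;> simp

/-- Even positions. -/
def evens (m : ℕ) : Finset (Fin (2 * m)) := univ.filter (fun x : Fin (2 * m) => (x : ℕ) % 2 = 0)

/-- Odd positions. -/
def odds (m : ℕ) : Finset (Fin (2 * m)) := univ.filter (fun x : Fin (2 * m) => ¬ (x : ℕ) % 2 = 0)

theorem sum_range_even (m : ℕ) :
    ∑ i ∈ range (2 * m), (if i % 2 = 0 then 1 else 0 : ℕ) = m := by
  induction m with
  | zero => simp
  | succ k ih =>
    have h : 2 * (k + 1) = 2 * k + 1 + 1 := by ring
    rw [h, Finset.sum_range_succ, Finset.sum_range_succ, ih]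
    have h1 : (2 * k) % 2 = 0 := by omega
    have h2 : ¬ (2 * k + 1) % 2 = 0 := by omega
    rw [if_pos h1, if_neg h2]

theorem sum_range_odd (m : ℕ) :
    ∑ i ∈ range (2 * m), (if ¬ i % 2 = 0 then 1 else 0 : ℕ) = m := by
  induction m with
  | zero => simp
  | succ k ih =>
    have h : 2 * (k + 1) = 2 * k + 1 + 1 := by ring
    rw [h, Finset.sum_range_succ, Finset.sum_range_succ, ih]
    have h1 : ¬ ¬ (2 * k) % 2 = 0 := by omega
    have h2 : ¬ (2 * k + 1) % 2 = 0 := by omega
    rw [if_neg h1, if_pos h2]

theorem card_evens (m : ℕ) : (evens m).card = m := by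
  unfold evens
  rw [Finset.card_filter]
  rw [Fin.sum_univ_eq_sum_range (fun i => if i % 2 = 0 then 1 else 0) (2 * m)]
  exact sum_range_even m

theorem card_odds (m : ℕ) : (odds m).card = m := by
  unfold odds
  rw [Finset.card_filter]
  rw [Fin.sum_univ_eq_sum_range (fun i => if ¬ i % 2 = 0 then 1 else 0) (2 * m)]
  exact sum_range_odd m

theorem sum_topInd_univ (m : ℕ) (σ : Equiv.Perm (Fin (2 * m))) :
    ∑ x : Fin (2 * m), topInd m σ x = (m : ℤ) := by
  unfold topInd
  rw [Equiv.sum_comp σ (fun z : Fin (2 * m) => if (z : ℕ) < m then (1 : ℤ) else 0)]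
  rw [Fin.sum_univ_eq_sum_range (fun i => if i < m then (1 : ℤ) else 0) (2 * m)]
  rw [← Finset.sum_filter]
  have : (range (2 * m)).filter (fun i => i < m) = range m := by
    ext i; simp; omega
  rw [this]
  simp

theorem sum_topInd_evens_add_odds (m : ℕ) (σ : Equiv.Perm (Fin (2 * m))) :
    ∑ x ∈ evens m, topInd m σ x + ∑ x ∈ odds m, topInd m σ x = (m : ℤ) := by
  unfold evens odds
  rw [Finset.sum_filter_add_sum_filter_not]
  exact sum_topInd_univ m σ

theorem evenTopCount_eq_sum (m : ℕ) (σ : Equiv.Perm (Fin (2 * m))) :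
    (evenTopCount m σ : ℤ) = ∑ x ∈ evens m, topInd m σ x := by
  unfold evenTopCount evens topInd
  rw [← Finset.filter_filter, Finset.card_filter]
  push_cast
  rfl

/-- Exchanging an even card `e` and an odd card `o` changes the count by the difference of
their top-half indicators. -/
theorem evenTopCount_mul_swap (m : ℕ) (σ : Equiv.Perm (Fin (2 * m))) (e o : Fin (2 * m))
    (he : e ∈ evens m) (ho : o ∈ odds m) :
    (evenTopCount m (σ * Equiv.swap e o) : ℤ)
      = (evenTopCount m σ : ℤ) - topInd m σ e + topInd m σ o := by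
  rw [evenTopCount_eq_sum, evenTopCount_eq_sum]
  rw [← Finset.add_sum_erase (evens m) (topInd m (σ * Equiv.swap e o)) he]
  rw [← Finset.add_sum_erase (evens m) (topInd m σ) he]
  have h1 : topInd m (σ * Equiv.swap e o) e = topInd m σ o := by
    unfold topInd
    rw [Equiv.Perm.coe_mul, Function.comp_apply, Equiv.swap_apply_left]
  have h2 : ∑ x ∈ (evens m).erase e, topInd m (σ * Equiv.swap e o) x
      = ∑ x ∈ (evens m).erase e, topInd m σ x := by
    apply Finset.sum_congr rfl
    intro x hx
    have hxe : x ≠ e := Finset.ne_of_mem_erase hx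
    have hxE : x ∈ evens m := Finset.mem_of_mem_erase hx
    have hxo : x ≠ o := by
      intro h
      rw [h] at hxE
      unfold evens at hxE
      unfold odds at ho
      simp only [Finset.mem_filter, Finset.mem_univ, true_and] at hxE ho
      exact ho hxE
    unfold topInd
    rw [Equiv.Perm.coe_mul, Function.comp_apply, Equiv.swap_apply_of_ne_of_ne hxe hxo]
  rw [h1, h2]
  ring

/-- The permutations with `evenTopCount = K`. -/
noncomputable def countSet (m K : ℕ) : Finset (Equiv.Perm (Fin (2 * m))) :=
  univ.filter (fun σ => evenTopCount m σ = K)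

theorem pairs_lower (m K : ℕ) (σ : Equiv.Perm (Fin (2 * m))) (hσ : σ ∈ countSet m K) :
    (m : ℤ) ^ 2 ≤ 2 * ∑ p ∈ evens m ×ˢ odds m,
      (if σ * Equiv.swap p.1 p.2 ∈ countSet m K then (0 : ℤ) else 1) := by
  have hσK : evenTopCount m σ = K := by
    unfold countSet at hσ
    simpa using hσ
  have hle : ∀ p ∈ evens m ×ˢ odds m,
      topInd m σ p.1 + topInd m σ p.2 - 2 * topInd m σ p.1 * topInd m σ p.2
        ≤ (if σ * Equiv.swap p.1 p.2 ∈ countSet m K then (0 : ℤ) else 1) := by
    intro p hp
    rw [Finset.mem_product] at hp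
    have hsw := evenTopCount_mul_swap m σ p.1 p.2 hp.1 hp.2
    rcases topInd_sq m σ p.1 with h1 | h1 <;> rcases topInd_sq m σ p.2 with h2 | h2
    · rw [h1, h2]; split_ifs <;> norm_num
    · rw [h1, h2] at hsw ⊢
      have hne : σ * Equiv.swap p.1 p.2 ∉ countSet m K := by
        unfold countSet
        simp only [Finset.mem_filter, Finset.mem_univ, true_and]
        intro hK
        rw [hK, hσK] at hsw
        omega
      rw [if_neg hne]; norm_num
    · rw [h1, h2] at hsw ⊢
      have hne : σ * Equiv.swap p.1 p.2 ∉ countSet m K := by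
        unfold countSet
        simp only [Finset.mem_filter, Finset.mem_univ, true_and]
        intro hK
        rw [hK, hσK] at hsw
        omega
      rw [if_neg hne]; norm_num
    · rw [h1, h2]; split_ifs <;> norm_num
  have hsum := Finset.sum_le_sum hle
  have hcalc : ∑ p ∈ evens m ×ˢ odds m,
      (topInd m σ p.1 + topInd m σ p.2 - 2 * topInd m σ p.1 * topInd m σ p.2)
      = (m : ℤ) * (∑ x ∈ evens m, topInd m σ x) + (m : ℤ) * (∑ x ∈ odds m, topInd m σ x)
        - 2 * (∑ x ∈ evens m, topInd m σ x) * (∑ x ∈ odds m, topInd m σ x) := by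
    rw [Finset.sum_product]
    simp only [Finset.sum_sub_distrib, Finset.sum_add_distrib, Finset.sum_const, nsmul_eq_mul,
      card_evens, card_odds]
    rw [← Finset.mul_sum]
    have h3 : ∑ x ∈ evens m, ∑ y ∈ odds m, 2 * topInd m σ x * topInd m σ y
        = 2 * (∑ x ∈ evens m, topInd m σ x) * (∑ x ∈ odds m, topInd m σ x) := by
      rw [mul_assoc, Finset.sum_mul_sum, Finset.mul_sum]
      apply Finset.sum_congr rfl
      intro x _
      rw [Finset.mul_sum]
      apply Finset.sum_congr rfl
      intro y _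
      ring
    rw [h3]
  have hab := sum_topInd_evens_add_odds m σ
  rw [hcalc] at hsum
  nlinarith [sq_nonneg (∑ x ∈ evens m, topInd m σ x - ∑ x ∈ odds m, topInd m σ x)]

theorem pairs_upper (m K : ℕ) (τ : Equiv.Perm (Fin (2 * m))) :
    ∑ σ ∈ countSet m K, (if σ * τ ∈ countSet m K then (0 : ℤ) else 1)
      ≤ ((2 * m).factorial : ℤ) - ((countSet m K).card : ℤ) := by
  have h1 : ∑ σ ∈ countSet m K, (if σ * τ ∈ countSet m K then (0 : ℤ) else 1)
      = (((countSet m K).filter (fun σ => σ * τ ∉ countSet m K)).card : ℤ) := by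
    rw [Finset.card_filter]
    push_cast
    apply Finset.sum_congr rfl
    intro σ _
    by_cases h : σ * τ ∈ countSet m K <;> simp [h]
  have h2 : ((countSet m K).filter (fun σ => σ * τ ∉ countSet m K)).card
      ≤ (univ.filter (fun σ : Equiv.Perm (Fin (2 * m)) => σ ∉ countSet m K)).card := by
    apply Finset.card_le_card_of_injOn (fun σ => σ * τ)
    · intro σ hσ
      simp only [Finset.coe_filter, Set.mem_ofPred_eq] at hσ
      simp only [Finset.coe_filter, Finset.mem_univ, true_and, Set.mem_ofPred_eq]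
      exact hσ.2
    · intro a _ b _ hab
      exact mul_right_cancel hab
  have h3 : (univ.filter (fun σ : Equiv.Perm (Fin (2 * m)) => σ ∉ countSet m K)).card
      + (countSet m K).card = (2 * m).factorial := by
    have := Finset.card_filter_add_card_filter_not (s := (univ : Finset (Equiv.Perm (Fin (2 * m)))))
      (fun σ => σ ∈ countSet m K)
    rw [Finset.card_univ, Fintype.card_perm, Fintype.card_fin] at this
    have h4 : univ.filter (fun σ : Equiv.Perm (Fin (2 * m)) => σ ∈ countSet m K) = countSet m K := by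
      ext σ; simp
    rw [h4] at this
    omega
  rw [h1]
  have h5 : (((countSet m K).filter (fun σ => σ * τ ∉ countSet m K)).card : ℤ)
      ≤ ((univ.filter (fun σ : Equiv.Perm (Fin (2 * m)) => σ ∉ countSet m K)).card : ℤ) := by
    exact_mod_cast h2
  have h6 : ((univ.filter (fun σ : Equiv.Perm (Fin (2 * m)) => σ ∉ countSet m K)).card : ℤ)
      + ((countSet m K).card : ℤ) = ((2 * m).factorial : ℤ) := by
    exact_mod_cast h3
  linarith

/-- At most two thirds of all permutations have a prescribed even-to-top count. -/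
theorem three_card_countSet_le (m K : ℕ) (hm : 0 < m) :
    3 * (countSet m K).card ≤ 2 * (2 * m).factorial := by
  have hlow : ((countSet m K).card : ℤ) * (m : ℤ) ^ 2
      ≤ ∑ σ ∈ countSet m K, 2 * ∑ p ∈ evens m ×ˢ odds m,
          (if σ * Equiv.swap p.1 p.2 ∈ countSet m K then (0 : ℤ) else 1) := by
    have := Finset.sum_le_sum (fun σ hσ => pairs_lower m K σ hσ)
    rw [Finset.sum_const, nsmul_eq_mul] at this
    exact this
  have hup : ∑ σ ∈ countSet m K, 2 * ∑ p ∈ evens m ×ˢ odds m,
          (if σ * Equiv.swap p.1 p.2 ∈ countSet m K then (0 : ℤ) else 1)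
      ≤ 2 * ((m : ℤ) ^ 2 * (((2 * m).factorial : ℤ) - ((countSet m K).card : ℤ))) := by
    rw [← Finset.mul_sum, Finset.sum_comm]
    have := Finset.sum_le_sum (s := evens m ×ˢ odds m)
      (fun p _ => pairs_upper m K (Equiv.swap p.1 p.2))
    rw [Finset.sum_const, nsmul_eq_mul, Finset.card_product, card_evens, card_odds] at this
    push_cast at this
    nlinarith [this]
  have hm' : (0 : ℤ) < (m : ℤ) ^ 2 := by positivity
  have hfinal : 3 * ((countSet m K).card : ℤ) ≤ 2 * ((2 * m).factorial : ℤ) := by
    by_contra hcon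
    push Not at hcon
    nlinarith [hlow, hup, hm']
  exact_mod_cast hfinal

end Vale.Agent.Helper17
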