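import Mathlib

/-!
# The Thorp shuffle: definitions

Positions of a deck of `2 * m` cards are `0, 1, ..., 2 * m - 1` (the problem's positions
`1, ..., n` shifted by one).  One Thorp shuffle with coin vector `b` takes, for each `i < m`,
the cards in positions `i` and `m + i` and places them in positions `2 * i` and `2 * i + 1`,
in the order decided by the coin `b i`.
-/

namespace Vale.Agent.Helper17

/-- New position of the card in position `p` after one Thorp shuffle with coins `b`:
for `i < m` the card in position `i` goes to `2 * i + 1` if `b i` is true and to `2 * i`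
otherwise, and the card in position `m + i` goes to the other one of these two positions. -/
def thorpFun (m : ℕ) (b : Fin m → Bool) (p : Fin (2 * m)) : Fin (2 * m) :=
  if h : (p : ℕ) < m then
    (if b ⟨p, h⟩ then ⟨2 * p + 1, by omega⟩ else ⟨2 * p, by omega⟩)
  else
    (if b ⟨p - m, by omega⟩ then ⟨2 * (p - m), by omega⟩ else ⟨2 * (p - m) + 1, by omega⟩)

theorem thorpFun_val_div_two (m : ℕ) (b : Fin m → Bool) (p : Fin (2 * m)) :
    (thorpFun m b p : ℕ) / 2 = (p : ℕ) % m := by
  unfold thorpFun
  have hp := p.isLt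
  by_cases h : (p : ℕ) < m
  · rw [dif_pos h, Nat.mod_eq_of_lt h]
    split_ifs <;> simp <;> omega
  · rw [dif_neg h]
    have h1 : (p : ℕ) % m = (p : ℕ) - m := by
      rw [Nat.mod_eq_sub_mod (by omega), Nat.mod_eq_of_lt (by omega)]
    rw [h1]
    split_ifs <;> simp <;> omega

theorem thorpFun_injective (m : ℕ) (b : Fin m → Bool) : Function.Injective (thorpFun m b) := by
  intro p q hpq
  have hp := p.isLt
  have hq := q.isLt
  have h2 : (thorpFun m b p : ℕ) = (thorpFun m b q : ℕ) := by rw [hpq]
  have hd : (p : ℕ) % m = (q : ℕ) % m := by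
    rw [← thorpFun_val_div_two m b p, ← thorpFun_val_div_two m b q, h2]
  apply Fin.ext
  by_contra hne
  unfold thorpFun at h2
  by_cases hpm : (p : ℕ) < m <;> by_cases hqm : (q : ℕ) < m
  · rw [Nat.mod_eq_of_lt hpm, Nat.mod_eq_of_lt hqm] at hd
    exact hne hd
  · have hq1 : (q : ℕ) % m = (q : ℕ) - m := by
      rw [Nat.mod_eq_sub_mod (by omega), Nat.mod_eq_of_lt (by omega)]
    rw [Nat.mod_eq_of_lt hpm, hq1] at hd
    rw [dif_pos hpm, dif_neg hqm] at h2
    have hb : b ⟨p, hpm⟩ = b ⟨q - m, by omega⟩ := by congr 1; exact Fin.ext hd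
    rw [hb] at h2
    split_ifs at h2 <;> simp at h2 <;> omega
  · have hp1 : (p : ℕ) % m = (p : ℕ) - m := by
      rw [Nat.mod_eq_sub_mod (by omega), Nat.mod_eq_of_lt (by omega)]
    rw [Nat.mod_eq_of_lt hqm, hp1] at hd
    rw [dif_neg hpm, dif_pos hqm] at h2
    have hb : b ⟨p - m, by omega⟩ = b ⟨q, hqm⟩ := by congr 1; exact Fin.ext hd
    rw [hb] at h2
    split_ifs at h2 <;> simp at h2 <;> omega
  · have hp1 : (p : ℕ) % m = (p : ℕ) - m := by
      rw [Nat.mod_eq_sub_mod (by omega), Nat.mod_eq_of_lt (by omega)]
    have hq1 : (q : ℕ) % m = (q : ℕ) - m := by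
      rw [Nat.mod_eq_sub_mod (by omega), Nat.mod_eq_of_lt (by omega)]
    rw [hp1, hq1] at hd
    omega

theorem thorpFun_bijective (m : ℕ) (b : Fin m → Bool) : Function.Bijective (thorpFun m b) :=
  Finite.injective_iff_bijective.mp (thorpFun_injective m b)

/-- One Thorp shuffle with coin vector `b`, as a permutation of the positions. -/
noncomputable def thorpPerm (m : ℕ) (b : Fin m → Bool) : Equiv.Perm (Fin (2 * m)) :=
  Equiv.ofBijective (thorpFun m b) (thorpFun_bijective m b)

/-- The permutation of positions produced by the successive shuffles with coin vectors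
`b₁, b₂, ...` (the head of the list is the first shuffle): a card in position `p` ends in
position `thorpWalk m [b₁, ..., b_t] p`. -/
noncomputable def thorpWalk (m : ℕ) : List (Fin m → Bool) → Equiv.Perm (Fin (2 * m))
  | [] => 1
  | b :: bs => thorpWalk m bs * thorpPerm m b

/-- The law `q_n^{*t}` of the permutation after `t` independent Thorp shuffles of `n = 2 * m`
cards: the fraction of the `2 ^ (t * m)` coin sequences that produce the permutation `σ`. -/
noncomputable def thorpLaw (m t : ℕ) (σ : Equiv.Perm (Fin (2 * m))) : ℚ :=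
  ((Finset.univ.filter
      (fun c : Fin t → Fin m → Bool => thorpWalk m (List.ofFn c) = σ)).card : ℚ) / 2 ^ (t * m)

/-- Total variation distance between `q_n^{*t}` and the uniform law on the symmetric group
of the `n = 2 * m` positions. -/
noncomputable def thorpTV (m t : ℕ) : ℚ :=
  (1 / 2) * ∑ σ : Equiv.Perm (Fin (2 * m)), |thorpLaw m t σ - 1 / ((2 * m).factorial : ℚ)|

end Vale.Agent.Helper17
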