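import Vale.Agent.Helper17.ThorpDefs

/-!
# The Thorp shuffle: a support invariant after `2 d` shuffles of `2 ^ (d + 1)` cards
-/

namespace Vale.Agent.Helper17

open Finset

theorem thorpPerm_apply (m : ℕ) (b : Fin m → Bool) (p : Fin (2 * m)) :
    thorpPerm m b p = thorpFun m b p := rfl

theorem thorpWalk_nil (m : ℕ) : thorpWalk m [] = 1 := rfl

theorem thorpWalk_cons (m : ℕ) (b : Fin m → Bool) (bs : List (Fin m → Bool)) :
    thorpWalk m (b :: bs) = thorpWalk m bs * thorpPerm m b := rfl

theorem thorpWalk_append (m : ℕ) (l1 l2 : List (Fin m → Bool)) :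
    thorpWalk m (l1 ++ l2) = thorpWalk m l2 * thorpWalk m l1 := by
  induction l1 with
  | nil => simp [thorpWalk_nil]
  | cons b bs ih =>
    rw [List.cons_append, thorpWalk_cons, thorpWalk_cons, ih, mul_assoc]

/-- Bit-shift invariant: after `j ≤ d + 1` shuffles of `2 ^ (d + 1)` cards, the position
divided by `2 ^ j` is the starting position modulo `2 ^ (d + 1 - j)`, whatever the coins. -/
theorem thorpWalk_shift (d : ℕ) : ∀ (l : List (Fin (2 ^ d) → Bool)), l.length ≤ d + 1 →
    ∀ p : Fin (2 * 2 ^ d),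
      (thorpWalk (2 ^ d) l p : ℕ) / 2 ^ l.length = (p : ℕ) % 2 ^ (d + 1 - l.length) := by
  intro l
  induction l with
  | nil =>
    intro _ p
    have hp := p.isLt
    simp only [thorpWalk_nil, List.length_nil, pow_zero, Nat.div_one, Nat.sub_zero,
      Equiv.Perm.coe_one, id_eq]
    rw [Nat.mod_eq_of_lt]
    rw [pow_succ]; omega
  | cons b bs ih =>
    intro hlen p
    simp only [List.length_cons] at hlen ⊢
    have hj : bs.length ≤ d := by omega
    have ih' := ih (by omega) (thorpPerm (2 ^ d) b p)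
    rw [thorpWalk_cons, Equiv.Perm.coe_mul, Function.comp_apply]
    rw [pow_succ, ← Nat.div_div_eq_div_mul, ih']
    have h1 : d + 1 - bs.length = (d - bs.length) + 1 := by omega
    have h2 : d + 1 - (bs.length + 1) = d - bs.length := by omega
    rw [h1, h2, pow_succ, Nat.mul_comm (2 ^ (d - bs.length)) 2, Nat.mod_mul_right_div_self,
      thorpPerm_apply, thorpFun_val_div_two]
    exact Nat.mod_mod_of_dvd _ (pow_dvd_pow 2 (Nat.sub_le d bs.length))

/-- After exactly `d` shuffles of `2 ^ (d + 1)` cards, a card is in the top half if and only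
if it started in an even position. -/
theorem thorpWalk_top_iff (d : ℕ) (l : List (Fin (2 ^ d) → Bool)) (hl : l.length = d)
    (p : Fin (2 * 2 ^ d)) :
    (thorpWalk (2 ^ d) l p : ℕ) < 2 ^ d ↔ (p : ℕ) % 2 = 0 := by
  have h := thorpWalk_shift d l (by omega) p
  rw [hl] at h
  have h3 : d + 1 - d = 1 := by omega
  rw [h3, pow_one] at h
  rw [← h]
  constructor
  · intro hlt
    exact Nat.div_eq_of_lt hlt
  · intro h0
    by_contra hge
    have hge' : 2 ^ d ≤ (thorpWalk (2 ^ d) l p : ℕ) := Nat.le_of_not_lt hge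
    have : 1 ≤ (thorpWalk (2 ^ d) l p : ℕ) / 2 ^ d := by
      rw [Nat.le_div_iff_mul_le (by positivity)]
      omega
    omega

/-- Number of cards that start in an even position and end in the top half. -/
def evenTopCount (m : ℕ) (σ : Equiv.Perm (Fin (2 * m))) : ℕ :=
  (univ.filter (fun x : Fin (2 * m) => (x : ℕ) % 2 = 0 ∧ (σ x : ℕ) < m)).card

/-- Number of even positions in the top half. -/
def evenTopConst (m : ℕ) : ℕ :=
  (univ.filter (fun z : Fin (2 * m) => (z : ℕ) < m ∧ (z : ℕ) % 2 = 0)).card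

/-- Support invariant: after `2 d` shuffles of `2 ^ (d + 1)` cards the number of cards from
even positions that end in the top half does not depend on the coins. -/
theorem evenTopCount_thorpWalk (d : ℕ) (l : List (Fin (2 ^ d) → Bool)) (hl : l.length = 2 * d) :
    evenTopCount (2 ^ d) (thorpWalk (2 ^ d) l) = evenTopConst (2 ^ d) := by
  have hsplit : l = l.take d ++ l.drop d := (List.take_append_drop d l).symm
  have h1 : (l.take d).length = d := by rw [List.length_take]; omega
  have h2 : (l.drop d).length = d := by rw [List.length_drop]; omega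
  set W1 := thorpWalk (2 ^ d) (l.take d) with hW1
  set W2 := thorpWalk (2 ^ d) (l.drop d) with hW2
  have hW : thorpWalk (2 ^ d) l = W2 * W1 := by
    rw [hW1, hW2, ← thorpWalk_append, ← hsplit]
  unfold evenTopCount evenTopConst
  rw [hW]
  have key : ∀ x : Fin (2 * 2 ^ d),
      ((x : ℕ) % 2 = 0 ∧ ((W2 * W1) x : ℕ) < 2 ^ d) ↔
        ((W1 x : ℕ) < 2 ^ d ∧ (W1 x : ℕ) % 2 = 0) := by
    intro x
    rw [Equiv.Perm.coe_mul, Function.comp_apply]
    rw [thorpWalk_top_iff d _ h2 (W1 x), thorpWalk_top_iff d _ h1 x]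
  rw [Finset.filter_congr (fun x _ => key x)]
  rw [Finset.card_filter, Finset.card_filter]
  exact Equiv.sum_comp W1
    (fun z : Fin (2 * 2 ^ d) => if ((z : ℕ) < 2 ^ d ∧ (z : ℕ) % 2 = 0) then 1 else 0)

end Vale.Agent.Helper17
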