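import Vale.Agent.Helper17.ThorpCount

/-!
# The Thorp shuffle: total variation lower bound from a support constraint
-/

namespace Vale.Agent.Helper17

open Finset

theorem sum_thorpLaw (m t : ℕ) : ∑ σ : Equiv.Perm (Fin (2 * m)), thorpLaw m t σ = 1 := by
  unfold thorpLaw
  rw [← Finset.sum_div, ← Nat.cast_sum]
  have h := Finset.card_eq_sum_card_fiberwise
    (s := (univ : Finset (Fin t → Fin m → Bool)))
    (t := (univ : Finset (Equiv.Perm (Fin (2 * m)))))
    (f := fun c => thorpWalk m (List.ofFn c)) (fun _ _ => Finset.mem_univ _)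
  rw [← h, Finset.card_univ]
  have hc : Fintype.card (Fin t → Fin m → Bool) = 2 ^ (t * m) := by
    simp only [Fintype.card_fun, Fintype.card_bool, Fintype.card_fin]
    rw [← pow_mul, Nat.mul_comm]
  rw [hc]
  push_cast
  exact div_self (by positivity)

theorem thorpLaw_eq_zero (m t : ℕ) (B : Finset (Equiv.Perm (Fin (2 * m))))
    (hB : ∀ c : Fin t → Fin m → Bool, thorpWalk m (List.ofFn c) ∈ B)
    (σ : Equiv.Perm (Fin (2 * m))) (hσ : σ ∉ B) : thorpLaw m t σ = 0 := by
  unfold thorpLaw
  have : univ.filter (fun c : Fin t → Fin m → Bool => thorpWalk m (List.ofFn c) = σ) = ∅ := by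
    ext c
    simp only [Finset.mem_filter, Finset.mem_univ, true_and, Finset.notMem_empty, iff_false]
    intro h
    exact hσ (h ▸ hB c)
  rw [this]
  simp

/-- If every coin sequence of length `t` produces a permutation in `B`, then the total
variation distance to uniform is at least `1 - |B| / n!`. -/
theorem thorpTV_ge (m t : ℕ) (B : Finset (Equiv.Perm (Fin (2 * m))))
    (hB : ∀ c : Fin t → Fin m → Bool, thorpWalk m (List.ofFn c) ∈ B) :
    1 - (B.card : ℚ) / ((2 * m).factorial : ℚ) ≤ thorpTV m t := by
  have hfac : (0 : ℚ) < ((2 * m).factorial : ℚ) := by exact_mod_cast Nat.factorial_pos _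
  set u : ℚ := 1 / ((2 * m).factorial : ℚ) with hu
  have hupos : 0 < u := by positivity
  have hsumB : ∑ σ ∈ B, thorpLaw m t σ = 1 := by
    rw [← sum_thorpLaw m t]
    apply Finset.sum_subset (Finset.subset_univ B)
    intro σ _ hσ
    exact thorpLaw_eq_zero m t B hB σ hσ
  have hterm : ∀ σ ∈ (univ : Finset (Equiv.Perm (Fin (2 * m)))),
      (if σ ∈ B then thorpLaw m t σ - u else u) ≤ |thorpLaw m t σ - u| := by
    intro σ _
    by_cases h : σ ∈ B
    · rw [if_pos h]; exact le_abs_self _
    · rw [if_neg h, thorpLaw_eq_zero m t B hB σ h, zero_sub, abs_neg, abs_of_pos hupos]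
  have hsum := Finset.sum_le_sum hterm
  rw [Finset.sum_ite] at hsum
  have hfB : univ.filter (fun σ : Equiv.Perm (Fin (2 * m)) => σ ∈ B) = B := by
    ext σ; simp
  have hcard : ((univ.filter (fun σ : Equiv.Perm (Fin (2 * m)) => σ ∉ B)).card : ℚ)
      = ((2 * m).factorial : ℚ) - (B.card : ℚ) := by
    have := Finset.card_filter_add_card_filter_not
      (s := (univ : Finset (Equiv.Perm (Fin (2 * m))))) (fun σ => σ ∈ B)
    rw [hfB, Finset.card_univ, Fintype.card_perm, Fintype.card_fin] at this
    have h2 : ((B.card + (univ.filter (fun σ : Equiv.Perm (Fin (2 * m)) => σ ∉ B)).card : ℕ) : ℚ)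
        = (((2 * m).factorial : ℕ) : ℚ) := by rw [this]
    push_cast at h2
    linarith
  rw [hfB, Finset.sum_sub_distrib, hsumB, Finset.sum_const, Finset.sum_const, nsmul_eq_mul,
    nsmul_eq_mul, hcard] at hsum
  unfold thorpTV
  have hfu : ((2 * m).factorial : ℚ) * u = 1 := by
    rw [hu]; field_simp
  have hBu : (B.card : ℚ) / ((2 * m).factorial : ℚ) = (B.card : ℚ) * u := by
    rw [hu]; ring
  rw [hBu]
  nlinarith [hsum, hfu]

/-- Main bound: for a deck of `2 ^ (d + 1)` cards, after any `t ≤ 2 d` Thorp shuffles the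
total variation distance to the uniform law is at least `1 / 3`. -/
theorem thorpTV_ge_third (d t : ℕ) (ht : t ≤ 2 * d) : (1 / 3 : ℚ) ≤ thorpTV (2 ^ d) t := by
  set m := 2 ^ d with hm
  have hmpos : 0 < m := by positivity
  set pad : List (Fin m → Bool) := List.replicate (2 * d - t) (fun _ => false) with hpad
  set g := thorpWalk m pad with hg
  set B : Finset (Equiv.Perm (Fin (2 * m))) :=
    univ.filter (fun σ => evenTopCount m (g * σ) = evenTopConst m) with hBdef
  have hB : ∀ c : Fin t → Fin m → Bool, thorpWalk m (List.ofFn c) ∈ B := by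
    intro c
    rw [hBdef]
    simp only [Finset.mem_filter, Finset.mem_univ, true_and]
    rw [hg, ← thorpWalk_append]
    apply evenTopCount_thorpWalk d
    rw [List.length_append, List.length_ofFn, hpad, List.length_replicate]
    omega
  have hcardB : B.card = (countSet m (evenTopConst m)).card := by
    rw [hBdef]
    unfold countSet
    rw [Finset.card_filter, Finset.card_filter]
    exact Equiv.sum_comp (Equiv.mulLeft g)
      (fun σ : Equiv.Perm (Fin (2 * m)) => if evenTopCount m σ = evenTopConst m then 1 else 0)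
  have h3 := three_card_countSet_le m (evenTopConst m) hmpos
  have hmain := thorpTV_ge m t B hB
  have hfac : (0 : ℚ) < ((2 * m).factorial : ℚ) := by exact_mod_cast Nat.factorial_pos _
  have h3' : 3 * (B.card : ℚ) ≤ 2 * ((2 * m).factorial : ℚ) := by
    rw [hcardB]; exact_mod_cast h3
  have hdiv : (B.card : ℚ) / ((2 * m).factorial : ℚ) ≤ 2 / 3 := by
    rw [div_le_iff₀ hfac]; linarith
  linarith

end Vale.Agent.Helper17
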